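import Vale.Agent.P076.R2.H831V.Fin7

open MeasureTheory Complex Filter Topology
open scoped ENNReal
open Vale.Agent.P076 Vale.Agent.P076.H791 Vale.Agent.P076.R2 Vale.Agent.P076.R2.H831
open Vale.Agent.P076.R2.H831V

/-- Strong pointwise convergence (for almost every `x` the value `e^{itΔ}f(x)` exists for all real
`t`, is continuous in `t` and is `f(x)` at `t = 0`) for data in `H^s`, `s ≥ 0`, whose Fourier
transform lives on a sparse set of frequencies, in particular at the endpoint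
`s = s_n = n / (2(n+1))`; for data with `1/4 + ε` derivatives in `L²` in the direction `e` and
`1/2 + ε` derivatives orthogonally to `e`; and for all data with `∫ w |f̂|² < ∞` if the inverse of
the weight `w` has integrable local density on spheres outside few tubes. -/
theorem Vale.Agent.Results.P076.SparseSpectrum.result (n : ℕ) (hn : 1 ≤ n) :
    -- (1) data in `H^s` with frequencies in the unit ball, on the spheres with radii in `J`, in a
    -- set `Ω` of small density on spheres, in few tubes (with a local density inside), or in small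
    -- balls around a separated set
    (∀ (s : ℝ) (J : Set ℝ) (Ω Ω' : Set (Fin n → ℝ)) (θ : ℝ → ℝ≥0∞) (δ : ℝ)
      (T : ℕ → Finset ((Fin n → ℝ) × ℝ × ℝ)) (L : Set (Fin n → ℝ)) (a τ : ℝ), 0 ≤ s →
      MeasurableSet J → IntegrableOn (fun ρ : ℝ => ρ ^ (-(2 * s))) (J ∩ Set.Ici 1) →
      MeasurableSet Ω → Measurable θ → 0 < δ → DensityLE Ω θ δ →
      ∫⁻ ρ in Set.Ioi (0 : ℝ), θ ρ * ENNReal.ofReal ((1 + ρ ^ 2) ^ (-s)) < ⊤ →
      MeasurableSet Ω' → ThinTubes s δ Ω' T →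
      0 < τ → SeparatedBy τ L → 1 < a * (n - 1) + 2 * s →
      ∀ f g : (Fin n → ℝ) → ℂ, IsFourierPair f g →
        Integrable (fun ξ => (1 + nrm ξ ^ 2) ^ s * ‖g ξ‖ ^ 2) →
        (∀ᵐ ξ, g ξ ≠ 0 → nrm ξ < 1 ∨ nrm ξ ∈ J ∨ ξ ∈ Ω ∨
          (ξ ∈ Ω' ∧ ∃ k, ∃ p ∈ T k, ξ ∈ tube k p) ∨ ξ ∈ balls a L) →
        ConvergesStrongly f g) ∧
    -- (2) anisotropic Sobolev spaces
    (∀ (e : Fin n → ℝ) (ε : ℝ), nrm e = 1 → 0 < ε →
      ∀ f g : (Fin n → ℝ) → ℂ, IsFourierPair f g →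
        Integrable (fun ξ => (|∑ i, ξ i * e i| ^ (1 / 2 + ε) +
          nrm (ξ - (∑ i, ξ i * e i) • e) ^ (1 + ε)) * ‖g ξ‖ ^ 2) → ConvergesStrongly f g) ∧
    -- (3) all data with `∫ w |f̂|² < ∞`
    (∀ (w v : (Fin n → ℝ) → ℝ≥0∞) (θ : ℝ → ℝ≥0∞) (δ : ℝ)
      (T : ℕ → Finset ((Fin n → ℝ) × ℝ × ℝ))
      (u : ℕ → (Fin n → ℝ) × ℝ × ℝ → (Fin n → ℝ) → ℝ≥0∞), Measurable w → (∀ ξ, 1 ≤ w ξ) →
      Measurable v → Measurable θ → ∫⁻ ρ in Set.Ioi (0 : ℝ), θ ρ < ⊤ → 0 < δ →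
      IntegralLE v θ δ → ThinWeights δ T u →
      (∀ ξ, (w ξ)⁻¹ ≤ v ξ + ∑' k, ∑ p ∈ T k, (tube k p).indicator (u k p) ξ) →
      ∀ f g : (Fin n → ℝ) → ℂ, IsFourierPair f g → ∫⁻ ξ, w ξ * ‖g ξ‖ₑ ^ 2 < ⊤ →
        ConvergesStrongly f g) := by
  refine ⟨?_, strong_ani hn, ?_⟩
  · intro s J Ω Ω' θ δ T L a τ hs hJ hJi hΩ hθ hδ hD hi hΩ' hT hτ hL ha f g hfg hE hsupp
    have m1 : MeasurableSet {ξ : Fin n → ℝ | nrm ξ < 1 ∨ nrm ξ ∈ J} :=
      (measurableSet_lt measurable_nrm measurable_const).union (measurable_nrm hJ)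
    have m3 := measurableSet_thin hΩ' T
    have m4 := measurableSet_balls a (countable_sep hτ hL)
    have g1 := good_radii hn hs hJ hJi
    have g2 : Good s Ω := good_density hn hs hΩ hθ hδ hD hi.ne
    have g3 := good_thin hn hs hδ hΩ' T hT
    have g4 := good_balls hn hs hτ ha hL
    have g5 := (g1.union g2 m1 hΩ).union (g3.union g4 m3 m4) (m1.union hΩ) (m3.union m4)
    refine g5.strong hs ((m1.union hΩ).union (m3.union m4)) hfg hE (hsupp.mono fun ξ h h0 => ?_)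
    rcases h h0 with h1 | h1 | h1 | h1 | h1
    · exact Or.inl (Or.inl (Or.inl h1))
    · exact Or.inl (Or.inl (Or.inr h1))
    · exact Or.inl (Or.inr h1)
    · exact Or.inr (Or.inl h1)
    · by_cases h2 : nrm ξ < 1
      · exact Or.inl (Or.inl (Or.inl h2))
      · exact Or.inr (Or.inr ⟨not_lt.1 h2, h1⟩)
  · intro w v θ δ T u hw hw1 hv hθ hθi hδ hvθ hT hle f g hfg hE
    exact strong_wt hn hw hw1 hv hθ hθi hδ hvθ hT hle hfg hE
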