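import Vale.Agent.P076.R2.H45.Tm8

open MeasureTheory Complex Filter Topology
open Vale.Agent.P076 Vale.Agent.P076.H791 Vale.Agent.P076.R2.H45

/-- Pointwise convergence of `e^{itΔ}f` along sets `E` of times which are sparse on each interval
of length `2^{-k}` at the scale `4^{-k}`, for data in `H^s`, `s > 0`, in particular at the endpoint
`s = s_n = n / (2(n+1))`; and the times of a counterexample to the question are not sparse. -/
theorem Vale.Agent.Results.P076.SparseTimes.result (n : ℕ) (hn : 1 ≤ n) :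
    -- (1), (2) convergence: at most `N k` intervals of length `2·4^{-k}` cover `E ∩ [a, a+2^{-k}]`,
    -- and `∑ N k 2^{-2sk} < ∞`
    (∀ (s : ℝ) (E : Set ℝ) (N : ℕ → ℕ), 0 < s → Cov E N →
      Summable (fun k : ℕ => (N k : ℝ) * (2 : ℝ) ^ (-(2 * s * k))) →
      ∀ f g : (Fin n → ℝ) → ℂ, IsFourierPair f g →
        Integrable (fun ξ => (1 + nrm ξ ^ 2) ^ s * ‖g ξ‖ ^ 2) →
        -- (1) any set `E`: versions `v t` of `e^{itΔ}f`, continuous in `t` on the closure
        (∃ v : ℝ → (Fin n → ℝ) → ℂ, v 0 = f ∧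
          (∀ t ∈ closure (insert 0 E),
            IsFourierPair (v t) (fun ξ => cexp (-(I * t * nrm ξ ^ 2)) * g ξ) ∧
            ∀ᵐ x, Tendsto (fun a => evolve g t a x) (𝓝[>] 0) (𝓝 (v t x))) ∧
          ∀ᵐ x, ContinuousOn (fun t => v t x) (closure (insert 0 E))) ∧
        -- (2) countable `E`: the values of the question
        (E.Countable → ∀ᵐ x, ∃ u : ℝ → ℂ, ContinuousOn u (closure (insert 0 E)) ∧ u 0 = f x ∧
          ∀ t ∈ insert 0 E, Tendsto (fun a => evolve g t a x) (𝓝[>] 0) (𝓝 (u t)))) ∧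
    -- (3) if the answer to the question is negative in dimension `n`, then there is a blow-up, and
    -- its set of times is not sparse
    ((¬ ∀ f g : (Fin n → ℝ) → ℂ, IsFourierPair f g →
        Integrable (fun ξ => (1 + nrm ξ ^ 2) ^ critExp n * ‖g ξ‖ ^ 2) → ConvergesAE f g) →
      ∃ (f g : (Fin n → ℝ) → ℂ) (T : Set ℝ), IsFourierPair f g ∧
        Integrable (fun ξ => (1 + nrm ξ ^ 2) ^ critExp n * ‖g ξ‖ ^ 2) ∧
        T ⊆ Set.Ioi 0 ∧ (∀ δ > 0, (T ∩ Set.Ici δ).Finite) ∧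
        (∀ u : ℝ → (Fin n → ℝ) → ℂ,
          (∀ t ∈ T, IsFourierPair (u t) fun ξ => cexp (-(I * t * nrm ξ ^ 2)) * g ξ) →
          ∀ᵐ x, ∀ M : ℝ, ∃ᶠ t in 𝓝[T] (0 : ℝ), M < ‖u t x‖) ∧
        ∀ N : ℕ → ℕ, Cov T N →
          ¬ Summable (fun k : ℕ => (N k : ℝ) * (2 : ℝ) ^ (-(2 * critExp n * k)))) := by
  refine ⟨?_, ?_⟩
  · intro s E N hs hcov hN f g hfg hE
    refine ⟨?_, fun hEc => strong_of_countable hn hs hEc hcov hN hfg hE⟩
    obtain ⟨v, h0, h1, h2⟩ := conv_times hn hs hcov hN hfg hE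
    exact ⟨v, h0, fun t ht => ⟨h1 t ht, gauss_Hs hn hs hfg hE t (v t) (h1 t ht)⟩, h2⟩
  · have hn0 : (0 : ℝ) < n := by exact_mod_cast hn
    exact thick hn (by unfold critExp; positivity)
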