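import Vale.Agent.P076.R2.H45.Fm7
import Vale.Agent.P076.R2.H45.Fm10
import Vale.Agent.P076.R2.H64.Rows

open MeasureTheory Complex Filter Topology
open scoped ENNReal
open Vale.Agent.P076 Vale.Agent.P076.R2.H45 Vale.Agent.P076.R2.H64

/-- Strong fractal means of `e^{itΔ}f(x)` at `t = 0`, with a rate, for all data in `H^s`, `s > 0`,
in particular at the endpoint `s = s_n = n / (2(n+1))`, where every exponent `γ > 1 / (n+1)` is
admissible and every rate `T ^ θ`, `θ < (γ - 1 / (n+1)) / 2`. -/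
theorem Vale.Agent.Results.P076.StrongMeans.result (n : ℕ) (hn : 1 ≤ n) (s γ θ : ℝ) (hs : 0 < s)
    (hγ : 0 < γ) (hγ1 : γ ≤ 1) (hθ : 0 < θ) (hθ2 : θ ≤ 2) (hsγ : 2 * θ < γ + 2 * s - 1)
    (f g : (Fin n → ℝ) → ℂ) (hfg : IsFourierPair f g)
    (hf : Integrable fun ξ => (1 + nrm ξ ^ 2) ^ s * ‖g ξ‖ ^ 2) :
    ∀ᵐ x, ∃ u : ℝ → ℂ, Measurable u ∧ u 0 = f x ∧
      -- (1) for every `γ`-dimensional measure the values of the question exist almost everywhere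
      (∀ T : ℝ, 0 < T → ∀ μ : Measure ℝ, Frost γ T μ → ∀ᵐ t ∂μ,
        Tendsto (fun a => evolve g t a x) (𝓝[>] 0) (𝓝 (u t))) ∧
      ∃ C : ℝ,
        -- (2) the strong means tend to `f x` at the rate `T ^ θ`, uniformly in the measure
        (∀ T : ℝ, 0 < T → T ≤ 1 → ∀ μ : Measure ℝ, Frost γ T μ →
          ∫⁻ t, ‖u t - f x‖ₑ ^ 2 ∂μ ≤ ENNReal.ofReal (C * T ^ θ)) ∧
        -- (3) strong Riesz means of order `γ`
        (∀ T : ℝ, 0 < T → T ≤ 1 → ∫⁻ t in Set.Ioo 0 T,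
          ENNReal.ofReal (γ * T ^ (-γ) * (T - t) ^ (γ - 1)) * ‖u t - f x‖ₑ ^ 2 ≤
            ENNReal.ofReal (C * T ^ θ)) := by
  filter_upwards [fractal_rate (specK hn) (specS n) (specA n) hs hγ hγ1 hθ hθ2 hsγ hfg hf]
    with x hx
  obtain ⟨u, h1, h2, h3, C, h4⟩ := hx
  refine ⟨u, h1, h2, h3, C, h4, fun T hT hTT => ?_⟩
  have h5 := h4 T hT hTT _ (frost_rz hγ hγ1 hT)
  have mu : Measurable fun t => ‖u t - f x‖ₑ ^ 2 := (h1.sub measurable_const).enorm.pow_const 2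
  rw [lintegral_withDensity_eq_lintegral_mul _ (measurable_rz γ T) mu] at h5
  exact h5
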