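import Vale.Agent.P076.R2.H64.Thin7

open MeasureTheory Complex Filter Topology
open Vale.Agent.P076 Vale.Agent.P076.R2.H64

/-- Carleson's problem along all times outside a thin set. For almost every `x` there is a set `S` of
intervals `I = [l / 4 ^ k, (l + 1) / 4 ^ k]`, `l ≥ 1`, with `∑ (|I| / dist(0, I)) ^ α < ∞` and
`∑ |I| ^ β < ∞`, off which the evolution is continuous in the time and tends to `f x` as `t → 0`.
(1): at the rate `t ^ γ`, for `f ∈ H ^ s`, `s > 2 γ > 0`; (2): with one set `S` for all exponents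
`α > 1 - 2 s`, `β > 1 / 2 - s`; (3): (2) at the critical exponent. -/
theorem Vale.Agent.Results.P076.ThinTimes.result (n : ℕ) (hn : 1 ≤ n) :
    -- (1) `H ^ s`, with a rate
    (∀ s γ α β : ℝ, 0 < γ → γ < 1 → 2 * γ < s → 0 < α → 1 - 2 * (s - 2 * γ) ≤ α →
      1 / 2 - (s - 2 * γ) ≤ β → ∀ f g : (Fin n → ℝ) → ℂ, IsFourierPair f g →
        Integrable (fun ξ => (1 + nrm ξ ^ 2) ^ s * ‖g ξ‖ ^ 2) →
          ∀ᵐ x, ∃ S : Set (ℕ × ℕ), (∀ p ∈ S, 1 ≤ p.2) ∧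
            Summable (fun p : S => (p.1.2 : ℝ) ^ (-α)) ∧
            Summable (fun p : S => ((4 : ℝ) ^ p.1.1) ^ (-β)) ∧
            ∃ u : ℝ → ℂ, ContinuousOn u (good S) ∧ u 0 = f x ∧
              (∀ t ∈ good S, Tendsto (fun a => evolve g t a x) (𝓝[>] 0) (𝓝 (u t))) ∧
              ∃ C : ℝ, ∀ t ∈ good S, t ≤ 1 → ‖u t - f x‖ ≤ C * t ^ γ) ∧
    -- (2) `H ^ s`, one exceptional set for all exponents
    (∀ s : ℝ, 0 < s → ∀ f g : (Fin n → ℝ) → ℂ, IsFourierPair f g →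
      Integrable (fun ξ => (1 + nrm ξ ^ 2) ^ s * ‖g ξ‖ ^ 2) →
        ∀ᵐ x, ∃ S : Set (ℕ × ℕ), (∀ p ∈ S, 1 ≤ p.2) ∧
          (∀ α : ℝ, 0 < α → 1 - 2 * s < α → Summable (fun p : S => (p.1.2 : ℝ) ^ (-α))) ∧
          (∀ β : ℝ, 1 / 2 - s < β → Summable (fun p : S => ((4 : ℝ) ^ p.1.1) ^ (-β))) ∧
          ∃ u : ℝ → ℂ, ContinuousOn u (good S) ∧ u 0 = f x ∧
            (∀ t ∈ good S, Tendsto (fun a => evolve g t a x) (𝓝[>] 0) (𝓝 (u t)))) ∧
    -- (3) the critical exponent `s_n = n / (2 (n + 1))`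
    (∀ f g : (Fin n → ℝ) → ℂ, IsFourierPair f g →
      Integrable (fun ξ => (1 + nrm ξ ^ 2) ^ critExp n * ‖g ξ‖ ^ 2) →
        ∀ᵐ x, ∃ S : Set (ℕ × ℕ), (∀ p ∈ S, 1 ≤ p.2) ∧
          (∀ α : ℝ, 1 / (n + 1 : ℝ) < α → Summable (fun p : S => (p.1.2 : ℝ) ^ (-α))) ∧
          (∀ β : ℝ, 1 / (2 * (n + 1) : ℝ) < β →
            Summable (fun p : S => ((4 : ℝ) ^ p.1.1) ^ (-β))) ∧
          ∃ u : ℝ → ℂ, ContinuousOn u (good S) ∧ u 0 = f x ∧
            (∀ t ∈ good S, Tendsto (fun a => evolve g t a x) (𝓝[>] 0) (𝓝 (u t)))) := by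
  refine ⟨fun s γ α β h1 h2 h3 h4 h5 h6 f g hfg hf => thin_final hn h1 h2 h3 h4 h5 h6 hfg hf,
    fun s hs f g hfg hf => thin_final' hn hs hfg hf, fun f g hfg hf => ?_⟩
  have hn' : (1 : ℝ) ≤ n := by exact_mod_cast hn
  have e1 : 1 - 2 * critExp n = 1 / (n + 1 : ℝ) := by
    unfold critExp
    field_simp
    ring
  have e2 : 1 / 2 - critExp n = 1 / (2 * (n + 1) : ℝ) := by
    unfold critExp
    field_simp
    ring
  have hc1 : 0 < critExp n := by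
    unfold critExp
    positivity
  filter_upwards [thin_final' hn hc1 hfg hf] with x hx
  obtain ⟨S, h1, h2, h3, h4⟩ := hx
  refine ⟨S, h1, fun α hα => h2 α (lt_trans (by positivity) hα) (by rw [e1]; exact hα),
    fun β hβ => h3 β (by rw [e2]; exact hβ), h4⟩
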